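/-
helper6: lower bounds of S0167 (row 125 team build).

For a closed subspace `E` of `L¹(P)` (`P` a probability measure) whose unit ball is totally
bounded in measure, the averaged midpoint quantity at every unit centre is at least
`max (t/2) (t-1)` and the one-sided quantity is at least `max 0 (t-2)`.
-/
import Mathlib
import Crest.Prelude.Def_DaugavetL1
import Crest.Agent.Helper7.AUCGame
import Crest.Agent.Helper7.AUCWeakNull

set_option autoImplicit false

namespace Crest.Agent.Helper6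

open MeasureTheory Crest.AnalysisR Crest.AnalysisR.L1Subspace Crest.Agent.Helper7

/-! ### A sign function -/

/-- The sign of a real number as a real number. -/
noncomputable def sgn (r : ℝ) : ℝ := if 0 < r then 1 else if r < 0 then -1 else 0

theorem measurable_sgn : Measurable sgn :=
  Measurable.ite measurableSet_Ioi measurable_const
    (Measurable.ite measurableSet_Iio measurable_const measurable_const)

theorem abs_sgn_le (r : ℝ) : |sgn r| ≤ 1 := by
  unfold sgn
  split_ifs <;> simp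

theorem sgn_mul_ge (g w a : ℝ) (h : |w - g| ≤ a) : |w| - 2 * a ≤ sgn g * w := by
  unfold sgn
  rw [abs_le] at h
  split_ifs with h1 h2
  · rcases abs_cases w with ⟨hw, _⟩ | ⟨hw, _⟩ <;> linarith
  · rcases abs_cases w with ⟨hw, _⟩ | ⟨hw, _⟩ <;> linarith
  · have hg : g = 0 := le_antisymm (not_lt.mp h1) (not_lt.mp h2)
    subst hg
    rcases abs_cases w with ⟨hw, _⟩ | ⟨hw, _⟩ <;> linarith

theorem neg_abs_le_sgn_mul (g w : ℝ) : -|w| ≤ sgn g * w := by
  have h1 := abs_sgn_le g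
  have h2 : |sgn g * w| ≤ |w| := by
    rw [abs_mul]
    exact mul_le_of_le_one_left (abs_nonneg _) h1
  linarith [neg_abs_le (sgn g * w)]

/-! ### Measure-theoretic lemmas at the level of functions -/

section Functions

variable {Ω : Type} [MeasurableSpace Ω] {μ : Measure Ω}

/-- Absolute continuity of the integral of one integrable function. -/
theorem exists_delta_setIntegral_le {f : Ω → ℝ} (hf : Integrable f μ) {ε : ℝ} (hε : 0 < ε) :
    ∃ δ : ℝ, 0 < δ ∧ ∀ s, MeasurableSet s → μ s ≤ ENNReal.ofReal δ →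
      ∫ z in s, |f z| ∂μ ≤ ε := by
  obtain ⟨δ, hδ, h⟩ := (memLp_one_iff_integrable.mpr hf).eLpNorm_indicator_le le_rfl
    ENNReal.one_ne_top hε
  refine ⟨δ, hδ, fun s hs hμ => ?_⟩
  have h1 := h s hs hμ
  rw [eLpNorm_one_eq_lintegral_enorm,
    ← ofReal_integral_norm_eq_lintegral_enorm (hf.indicator hs)] at h1
  have h2 := (ENNReal.ofReal_le_ofReal_iff hε.le).mp h1
  have h3 : ∫ z in s, |f z| ∂μ = ∫ z, ‖s.indicator f z‖ ∂μ := by
    rw [← integral_indicator hs]
    congr 1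
    funext z
    by_cases hz : z ∈ s <;> simp [hz]
  rw [h3]
  exact h2

theorem two_mul_le_integral_abs {u v : Ω → ℝ} (hu : Integrable u μ) (hv : Integrable v μ)
    {A : Set Ω} (hA : MeasurableSet A) :
    2 * (∫ z in Aᶜ, |u z| ∂μ + ∫ z in A, |v z| ∂μ) ≤
      ∫ z, (|u z + v z| + |u z - v z|) ∂μ := by
  have hint : Integrable (fun z => |u z + v z| + |u z - v z|) μ :=
    (hu.add hv).abs.add (hu.sub hv).abs
  rw [← integral_add_compl hA hint]
  have h1 : ∫ z in A, 2 * |v z| ∂μ ≤ ∫ z in A, (|u z + v z| + |u z - v z|) ∂μ := by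
    refine setIntegral_mono (hv.abs.const_mul 2).integrableOn hint.integrableOn (fun z => ?_)
    have e : 2 * v z = (u z + v z) - (u z - v z) := by ring
    calc 2 * |v z| = |2 * v z| := by rw [abs_mul]; simp
      _ = |(u z + v z) - (u z - v z)| := by rw [e]
      _ ≤ |u z + v z| + |u z - v z| := abs_sub _ _
  have h2 : ∫ z in Aᶜ, 2 * |u z| ∂μ ≤ ∫ z in Aᶜ, (|u z + v z| + |u z - v z|) ∂μ := by
    refine setIntegral_mono (hu.abs.const_mul 2).integrableOn hint.integrableOn (fun z => ?_)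
    have e : 2 * u z = (u z + v z) + (u z - v z) := by ring
    calc 2 * |u z| = |2 * u z| := by rw [abs_mul]; simp
      _ = |(u z + v z) + (u z - v z)| := by rw [e]
      _ ≤ |u z + v z| + |u z - v z| := abs_add_le _ _
  rw [integral_const_mul] at h1 h2
  linarith

/-- If `w` is orthogonal to the sign of `g`, then at least half of the mass of `w` (up to `a`)
sits on the set where `w` and `g` differ by more than `a`. -/
theorem half_sub_le_setIntegral [IsProbabilityMeasure μ] {w g : Ω → ℝ}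
    (hw : Integrable w μ) (hwm : Measurable w) (hgm : Measurable g) {a : ℝ} (ha : 0 ≤ a)
    (h0 : ∫ z, sgn (g z) * w z ∂μ = 0) :
    (∫ z, |w z| ∂μ) / 2 - a ≤ ∫ z in {z | a < |w z - g z|}, |w z| ∂μ := by
  set A : Set Ω := {z | a < |w z - g z|} with hA
  have hAm : MeasurableSet A :=
    measurableSet_lt measurable_const (continuous_abs.measurable.comp (hwm.sub hgm))
  have hsw : Integrable (fun z => sgn (g z) * w z) μ :=
    hw.bdd_mul (c := 1) (measurable_sgn.comp hgm).aestronglyMeasurable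
      (ae_of_all _ fun z => by rw [Real.norm_eq_abs]; exact abs_sgn_le _)
  have hsplit := integral_add_compl hAm hsw
  have hsplit' := integral_add_compl hAm hw.abs
  have h1 : -(∫ z in A, |w z| ∂μ) ≤ ∫ z in A, sgn (g z) * w z ∂μ := by
    rw [← integral_neg]
    exact setIntegral_mono hw.abs.neg.integrableOn hsw.integrableOn
      (fun z => neg_abs_le_sgn_mul _ _)
  have h2 : ∫ z in Aᶜ, (|w z| - 2 * a) ∂μ ≤ ∫ z in Aᶜ, sgn (g z) * w z ∂μ := by
    refine setIntegral_mono_on (hw.abs.sub (integrable_const _)).integrableOn hsw.integrableOn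
      hAm.compl (fun z hz => ?_)
    exact sgn_mul_ge _ _ _ (not_lt.mp hz)
  have h3 : ∫ z in Aᶜ, (|w z| - 2 * a) ∂μ = ∫ z in Aᶜ, |w z| ∂μ - μ.real Aᶜ * (2 * a) := by
    rw [integral_sub hw.abs.integrableOn (integrable_const _).integrableOn, setIntegral_const,
      smul_eq_mul]
  have h4 : μ.real Aᶜ ≤ 1 := measureReal_le_one
  have h5 : μ.real Aᶜ * (2 * a) ≤ 2 * a := by
    nlinarith [measureReal_nonneg (μ := μ) (s := Aᶜ)]
  linarith

end Functions

/-! ### Subspaces of `L¹` -/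

section Subspace

variable {Ω : Type} [MeasurableSpace Ω] {P : Measure Ω} {E : Submodule ℝ (Lp ℝ 1 P)}

theorem norm_eq_integral_abs (y : E) :
    ‖y‖ = ∫ z, |((y : Lp ℝ 1 P) : Ω → ℝ) z| ∂P := by
  have h : ‖y‖ = ‖(y : Lp ℝ 1 P)‖ := rfl
  rw [h, L1.norm_eq_integral_norm]
  rfl

theorem integrable_coe (y : E) : Integrable (((y : Lp ℝ 1 P) : Ω → ℝ)) P :=
  L1.integrable_coeFn _

theorem measurable_coe (y : Lp ℝ 1 P) : Measurable ((y : Ω → ℝ)) :=
  (Lp.stronglyMeasurable y).measurable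

theorem coe_add_smul_ae (x y : E) (t : ℝ) :
    (((x + t • y : E) : Lp ℝ 1 P) : Ω → ℝ) =ᵐ[P]
      fun z => ((x : Lp ℝ 1 P) : Ω → ℝ) z + t * ((y : Lp ℝ 1 P) : Ω → ℝ) z := by
  have h1 := Lp.coeFn_add (x : Lp ℝ 1 P) (t • (y : Lp ℝ 1 P))
  have h2 := Lp.coeFn_smul t (y : Lp ℝ 1 P)
  filter_upwards [h1, h2] with z hz1 hz2
  have e : ((x + t • y : E) : Lp ℝ 1 P) = (x : Lp ℝ 1 P) + t • (y : Lp ℝ 1 P) := rfl
  rw [e, hz1, Pi.add_apply, hz2, Pi.smul_apply, smul_eq_mul]

theorem coe_sub_smul_ae (x y : E) (t : ℝ) :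
    (((x - t • y : E) : Lp ℝ 1 P) : Ω → ℝ) =ᵐ[P]
      fun z => ((x : Lp ℝ 1 P) : Ω → ℝ) z - t * ((y : Lp ℝ 1 P) : Ω → ℝ) z := by
  have h1 := Lp.coeFn_sub (x : Lp ℝ 1 P) (t • (y : Lp ℝ 1 P))
  have h2 := Lp.coeFn_smul t (y : Lp ℝ 1 P)
  filter_upwards [h1, h2] with z hz1 hz2
  have e : ((x - t • y : E) : Lp ℝ 1 P) = (x : Lp ℝ 1 P) - t • (y : Lp ℝ 1 P) := rfl
  rw [e, hz1, Pi.sub_apply, hz2, Pi.smul_apply, smul_eq_mul]

/-- Integration against a bounded measurable weight, as a continuous linear functional on a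
subspace of `L¹`. -/
noncomputable def wInt (P : Measure Ω) (E : Submodule ℝ (Lp ℝ 1 P)) (h : Ω → ℝ)
    (hm : Measurable h) (hb : ∀ z, |h z| ≤ 1) : E →L[ℝ] ℝ :=
  LinearMap.mkContinuous
    { toFun := fun y => ∫ z, h z * ((y : Lp ℝ 1 P) : Ω → ℝ) z ∂P
      map_add' := fun y₁ y₂ => by
        have hi : ∀ y : E, Integrable (fun z => h z * ((y : Lp ℝ 1 P) : Ω → ℝ) z) P := fun y =>
          (integrable_coe y).bdd_mul (c := 1) hm.aestronglyMeasurable
            (ae_of_all _ fun z => by rw [Real.norm_eq_abs]; exact hb z)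
        have hae := Lp.coeFn_add (y₁ : Lp ℝ 1 P) (y₂ : Lp ℝ 1 P)
        have e : ((y₁ + y₂ : E) : Lp ℝ 1 P) = (y₁ : Lp ℝ 1 P) + (y₂ : Lp ℝ 1 P) := rfl
        rw [← integral_add (hi y₁) (hi y₂)]
        refine integral_congr_ae ?_
        filter_upwards [hae] with z hz
        rw [e, hz, Pi.add_apply, mul_add]
      map_smul' := fun c y => by
        have hae := Lp.coeFn_smul c (y : Lp ℝ 1 P)
        have e : ((c • y : E) : Lp ℝ 1 P) = c • (y : Lp ℝ 1 P) := rfl
        rw [RingHom.id_apply, smul_eq_mul, ← integral_const_mul]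
        refine integral_congr_ae ?_
        filter_upwards [hae] with z hz
        rw [e, hz, Pi.smul_apply, smul_eq_mul]
        ring } 1 (fun y => by
      rw [one_mul, norm_eq_integral_abs]
      have hi : Integrable (fun z => h z * ((y : Lp ℝ 1 P) : Ω → ℝ) z) P :=
        (integrable_coe y).bdd_mul (c := 1) hm.aestronglyMeasurable
          (ae_of_all _ fun z => by rw [Real.norm_eq_abs]; exact hb z)
      refine (norm_integral_le_integral_norm _).trans ?_
      refine integral_mono hi.norm (integrable_coe y).abs (fun z => ?_)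
      rw [Real.norm_eq_abs, abs_mul]
      exact mul_le_of_le_one_left (abs_nonneg _) (hb z))

theorem wInt_apply (h : Ω → ℝ) (hm : Measurable h) (hb : ∀ z, |h z| ≤ 1) (y : E) :
    wInt P E h hm hb y = ∫ z, h z * ((y : Lp ℝ 1 P) : Ω → ℝ) z ∂P := rfl

/-- One-sided lower bound (type-class form): with `F` the kernel of a norming functional of
`x`, every unit `y ∈ F` has `‖x + t • y‖ - 1 ≥ max 0 (t - 2)`. -/
theorem daug_oneSided_core (t : ℝ) (ht : 0 < t) (x : E) (hx : ‖x‖ = 1) :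
    ∃ F : Set E, AUC.IsCof F ∧ ∀ y ∈ F, ‖y‖ = 1 → max 0 (t - 2) ≤ ‖x + t • y‖ - 1 := by
  obtain ⟨φ, hφ1, hφx⟩ := exists_dual_vector ℝ x (by rw [hx]; exact one_ne_zero)
  refine ⟨{y : E | ∀ _ : Unit, φ y = 0}, AUC.isCof_iInter_ker (fun _ : Unit => φ),
    fun y hy hy1 => ?_⟩
  have hy0 : φ y = 0 := hy ()
  have h1 : (1 : ℝ) ≤ ‖x + t • y‖ := by
    have h := φ.le_opNorm (x + t • y)
    rw [hφ1, one_mul, Real.norm_eq_abs] at h
    have h2 : φ (x + t • y) = 1 := by
      rw [map_add, map_smul, hy0, smul_zero, add_zero, hφx, hx]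
      rfl
    rw [h2, abs_one] at h
    exact h
  have h2 : t - 2 ≤ ‖x + t • y‖ - 1 := by
    have h := norm_sub_le (x + t • y) x
    have e : x + t • y - x = t • y := by abel
    rw [e, norm_smul, hy1, hx, Real.norm_eq_abs, abs_of_pos ht, mul_one] at h
    linarith
  exact max_le (by linarith) h2

/-- Midpoint lower bound (type-class form). -/
theorem daug_midpoint_core [IsProbabilityMeasure P]
    (htb : UnitBallTotallyBoundedInMeasure P E) (t : ℝ) (ht : 0 < t) (x : E) (hx : ‖x‖ = 1)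
    (η : ℝ) (hη : 0 < η) :
    ∃ F : Set E, AUC.IsCof F ∧ ∀ y ∈ F, ‖y‖ = 1 →
      max (t / 2) (t - 1) - η ≤ (‖x + t • y‖ + ‖x - t • y‖) / 2 - 1 := by
  have hxint := integrable_coe x
  obtain ⟨δ₁, hδ₁, hac⟩ := exists_delta_setIntegral_le hxint (half_pos hη)
  set δ : ℝ := min δ₁ (η / (2 * t)) with hδ
  have hδpos : 0 < δ := lt_min hδ₁ (by positivity)
  obtain ⟨s, hs, hnet⟩ := htb δ hδpos
  let φ : s → (E →L[ℝ] ℝ) := fun g =>
    wInt P E (fun z => sgn (((g : Lp ℝ 1 P) : Ω → ℝ) z))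
      (measurable_sgn.comp (measurable_coe (g : Lp ℝ 1 P))) (fun z => abs_sgn_le _)
  refine ⟨{y : E | ∀ g : s, φ g y = 0}, AUC.isCof_iInter_ker φ, fun y hy hy1 => ?_⟩
  have hyint := integrable_coe y
  -- the triangle-inequality part
  have htri : t ≤ (‖x + t • y‖ + ‖x - t • y‖) / 2 := by
    have e : (x + t • y) - (x - t • y) = (2 * t) • y := by module
    have h := norm_sub_le (x + t • y) (x - t • y)
    rw [e, norm_smul, hy1, Real.norm_eq_abs, abs_of_pos (by positivity : (0 : ℝ) < 2 * t),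
      mul_one] at h
    linarith
  -- a net element close to `y` in measure
  obtain ⟨g, hg, hdist⟩ := hnet (y : Lp ℝ 1 P) y.2 (le_of_eq hy1)
  obtain ⟨a, ha0, haδ, hPa⟩ : ∃ a : ℝ, 0 < a ∧ a < δ ∧
      P {z | a < |((y : Lp ℝ 1 P) : Ω → ℝ) z - (g : Ω → ℝ) z|} < ENNReal.ofReal a := by
    unfold measureDist at hdist
    have hne : {a : ℝ | 0 < a ∧
        P {z | a < |((y : Lp ℝ 1 P) : Ω → ℝ) z - (g : Ω → ℝ) z|} < ENNReal.ofReal a}.Nonempty :=
      ⟨2, by norm_num, lt_of_le_of_lt prob_le_one (by norm_num)⟩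
    obtain ⟨a, ha, hlt⟩ := exists_lt_of_csInf_lt hne hdist
    exact ⟨a, ha.1, hlt, ha.2⟩
  set A : Set Ω := {z | a < |((y : Lp ℝ 1 P) : Ω → ℝ) z - (g : Ω → ℝ) z|} with hA
  have hAm : MeasurableSet A :=
    measurableSet_lt measurable_const
      (continuous_abs.measurable.comp ((measurable_coe (y : Lp ℝ 1 P)).sub (measurable_coe g)))
  -- at least half of the mass of `y` sits on `A`
  have hyA : 1 / 2 - a ≤ ∫ z in A, |((y : Lp ℝ 1 P) : Ω → ℝ) z| ∂P := by
    have h0 : φ ⟨g, hg⟩ y = 0 := hy ⟨g, hg⟩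
    have h := half_sub_le_setIntegral (μ := P) (w := ((y : Lp ℝ 1 P) : Ω → ℝ)) (g := (g : Ω → ℝ))
      hyint (measurable_coe _) (measurable_coe g) ha0.le h0
    rw [← norm_eq_integral_abs, hy1] at h
    exact h
  -- the mass of `x` on `A` is small
  have hxA : ∫ z in A, |((x : Lp ℝ 1 P) : Ω → ℝ) z| ∂P ≤ η / 2 :=
    hac A hAm (le_of_lt (hPa.trans_le
      (ENNReal.ofReal_le_ofReal (haδ.le.trans (min_le_left _ _)))))
  have hxc : ∫ z in Aᶜ, |((x : Lp ℝ 1 P) : Ω → ℝ) z| ∂P =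
      1 - ∫ z in A, |((x : Lp ℝ 1 P) : Ω → ℝ) z| ∂P := by
    have h := integral_add_compl hAm hxint.abs
    rw [← norm_eq_integral_abs, hx] at h
    linarith
  have hty : ∫ z in A, |t * ((y : Lp ℝ 1 P) : Ω → ℝ) z| ∂P =
      t * ∫ z in A, |((y : Lp ℝ 1 P) : Ω → ℝ) z| ∂P := by
    rw [← integral_const_mul]
    refine integral_congr_ae (ae_of_all _ fun z => ?_)
    simp only [abs_mul, abs_of_pos ht]
  have hmain : 2 * (∫ z in Aᶜ, |((x : Lp ℝ 1 P) : Ω → ℝ) z| ∂P +
      ∫ z in A, |t * ((y : Lp ℝ 1 P) : Ω → ℝ) z| ∂P) ≤ ‖x + t • y‖ + ‖x - t • y‖ := by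
    have h := two_mul_le_integral_abs (μ := P) hxint (hyint.const_mul t) hAm
    have e1 : ‖x + t • y‖ = ∫ z, |((x : Lp ℝ 1 P) : Ω → ℝ) z + t * ((y : Lp ℝ 1 P) : Ω → ℝ) z| ∂P := by
      rw [norm_eq_integral_abs]
      refine integral_congr_ae ?_
      filter_upwards [coe_add_smul_ae x y t] with z hz
      rw [hz]
    have e2 : ‖x - t • y‖ = ∫ z, |((x : Lp ℝ 1 P) : Ω → ℝ) z - t * ((y : Lp ℝ 1 P) : Ω → ℝ) z| ∂P := by
      rw [norm_eq_integral_abs]
      refine integral_congr_ae ?_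
      filter_upwards [coe_sub_smul_ae x y t] with z hz
      rw [hz]
    have i1 : Integrable
        (fun z => |((x : Lp ℝ 1 P) : Ω → ℝ) z + t * ((y : Lp ℝ 1 P) : Ω → ℝ) z|) P :=
      (hxint.add (hyint.const_mul t)).abs
    have i2 : Integrable
        (fun z => |((x : Lp ℝ 1 P) : Ω → ℝ) z - t * ((y : Lp ℝ 1 P) : Ω → ℝ) z|) P :=
      (hxint.sub (hyint.const_mul t)).abs
    rw [e1, e2, ← integral_add i1 i2]
    exact h
  have htδ : t * a ≤ η / 2 := by
    have h1 : a ≤ η / (2 * t) := haδ.le.trans (min_le_right _ _)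
    have h2 : t * a ≤ t * (η / (2 * t)) := mul_le_mul_of_nonneg_left h1 ht.le
    have h3 : t * (η / (2 * t)) = η / 2 := by field_simp
    linarith
  rw [hxc, hty] at hmain
  have hty2 : t * (1 / 2 - a) ≤ t * ∫ z in A, |((y : Lp ℝ 1 P) : Ω → ℝ) z| ∂P :=
    mul_le_mul_of_nonneg_left hyA ht.le
  rw [sub_le_iff_le_add]
  refine max_le ?_ ?_
  · linarith
  · linarith

end Subspace

/-! ### Record form: the first and third conjuncts of S0167 -/

section Record

variable {Ω : Type} [MeasurableSpace Ω] {P : Measure Ω} [IsProbabilityMeasure P]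
  {E : Submodule ℝ (Lp ℝ 1 P)}

/-- **Midpoint lower bound of S0167** (first conjunct of the modulus part, verbatim). -/
theorem daug_midpoint_ge (hcl : IsClosed (E : Set (Lp ℝ 1 P)))
    (htb : UnitBallTotallyBoundedInMeasure P E) (t : ℝ) (ht : 0 < t) :
    (toRealBanach P E hcl).MidpointModulusGE (toRealBanach P E hcl).norm t
      (max (t / 2) (t - 1)) := by
  intro x hx η hη
  obtain ⟨F, hF, h⟩ := daug_midpoint_core htb t ht x hx η hη
  exact ⟨F, hF, fun y hy hy1 => h y hy hy1⟩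

omit [IsProbabilityMeasure P] in
/-- **One-sided lower bound of S0167** (third conjunct of the modulus part, verbatim). -/
theorem daug_oneSided_ge (hcl : IsClosed (E : Set (Lp ℝ 1 P))) (t : ℝ) (ht : 0 < t) :
    (toRealBanach P E hcl).OneSidedModulusGE (toRealBanach P E hcl).norm t (max 0 (t - 2)) := by
  intro (x : E) (hx : ‖x‖ = 1) η hη
  obtain ⟨F, hF, h⟩ := daug_oneSided_core (E := E) t ht x hx
  refine ⟨F, hF, fun (y : E) hy (hy1 : ‖y‖ = 1) => ?_⟩
  have h1 := h y hy hy1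
  change max 0 (t - 2) - η ≤ ‖x + t • y‖ - 1
  linarith

end Record

end Crest.Agent.Helper6
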