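/-
helper6: the diamond-graph distortion bound of S0166 (row 125 team build).

Main result: `diamond_distortion` — in a real Banach space whose maximum-based midpoint modulus
is at least `√(1 + t²/4) - 1` at every `t > 0`, every map of the depth-`k` countably branching
diamond graph of distortion at most `D` has `1 + k/4 ≤ D²`.
-/
import Mathlib
import Crest.Prelude.Def_Diamond

set_option autoImplicit false

namespace Crest.Agent.Helper6

open Crest.AnalysisR

/-! ### The diamond graphs: adjacency, connectivity, distances -/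

theorem diamond_adj_iff (k : ℕ) (u v : DiamondVertex k) :
    (diamondGraph k).Adj u v ↔ u ≠ v ∧
      ((∃ e : DiamondEdge k, diamondSrc k e = u ∧ diamondTgt k e = v) ∨
        (∃ e : DiamondEdge k, diamondSrc k e = v ∧ diamondTgt k e = u)) :=
  Iff.rfl

theorem diamond_adj_src_mid (k : ℕ) (e : DiamondEdge k) (i : ℕ) :
    (diamondGraph (k + 1)).Adj (Sum.inl (diamondSrc k e)) (Sum.inr (e, i)) :=
  (diamond_adj_iff (k + 1) _ _).mpr ⟨Sum.inl_ne_inr, Or.inl ⟨(e, i, false), rfl, rfl⟩⟩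

theorem diamond_adj_mid_tgt (k : ℕ) (e : DiamondEdge k) (i : ℕ) :
    (diamondGraph (k + 1)).Adj (Sum.inr (e, i)) (Sum.inl (diamondTgt k e)) :=
  (diamond_adj_iff (k + 1) _ _).mpr ⟨Sum.inr_ne_inl, Or.inl ⟨(e, i, true), rfl, rfl⟩⟩

/-- Every edge of `D (k+1)` joins an old vertex (an endpoint of an edge `e` of `D k`) with a
middle vertex of the same edge `e`. -/
theorem diamond_adj_succ_cases (k : ℕ) {p q : DiamondVertex (k + 1)}
    (h : (diamondGraph (k + 1)).Adj p q) :
    ∃ (e : DiamondEdge k) (i : ℕ),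
      (p = Sum.inl (diamondSrc k e) ∧ q = Sum.inr (e, i)) ∨
      (p = Sum.inr (e, i) ∧ q = Sum.inl (diamondTgt k e)) ∨
      (q = Sum.inl (diamondSrc k e) ∧ p = Sum.inr (e, i)) ∨
      (q = Sum.inr (e, i) ∧ p = Sum.inl (diamondTgt k e)) := by
  obtain ⟨-, ⟨⟨e, i, b⟩, h1, h2⟩ | ⟨⟨e, i, b⟩, h1, h2⟩⟩ := (diamond_adj_iff (k + 1) _ _).mp h
  · cases b
    · exact ⟨e, i, Or.inl ⟨h1.symm, h2.symm⟩⟩
    · exact ⟨e, i, Or.inr (Or.inl ⟨h1.symm, h2.symm⟩)⟩
  · cases b
    · exact ⟨e, i, Or.inr (Or.inr (Or.inl ⟨h1.symm, h2.symm⟩))⟩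
    · exact ⟨e, i, Or.inr (Or.inr (Or.inr ⟨h1.symm, h2.symm⟩))⟩

/-- The diamond graphs are connected. -/
theorem diamond_reachable : ∀ (k : ℕ) (u v : DiamondVertex k), (diamondGraph k).Reachable u v
  | 0, u, v => by
    have h : (diamondGraph 0).Adj false true :=
      (diamond_adj_iff 0 _ _).mpr ⟨Bool.false_ne_true, Or.inl ⟨(), rfl, rfl⟩⟩
    have hu : ∀ w : DiamondVertex 0, w = false ∨ w = true := fun w =>
      match w with
      | false => Or.inl rfl
      | true => Or.inr rfl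
    rcases hu u with rfl | rfl <;> rcases hu v with rfl | rfl
    · exact SimpleGraph.Reachable.refl _
    · exact h.reachable
    · exact h.symm.reachable
    · exact SimpleGraph.Reachable.refl _
  | k + 1, u, v => by
    have hinl : ∀ a b : DiamondVertex k,
        (diamondGraph (k + 1)).Reachable (Sum.inl a) (Sum.inl b) := by
      intro a b
      obtain ⟨p⟩ := diamond_reachable k a b
      induction p with
      | nil => exact SimpleGraph.Reachable.refl _
      | cons hadj p ih =>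
        refine SimpleGraph.Reachable.trans ?_ ih
        obtain ⟨-, ⟨e, rfl, rfl⟩ | ⟨e, rfl, rfl⟩⟩ := (diamond_adj_iff k _ _).mp hadj
        · exact (diamond_adj_src_mid k e 0).reachable.trans (diamond_adj_mid_tgt k e 0).reachable
        · exact (diamond_adj_mid_tgt k e 0).symm.reachable.trans
            (diamond_adj_src_mid k e 0).symm.reachable
    have hmid : ∀ (e : DiamondEdge k) (i : ℕ),
        (diamondGraph (k + 1)).Reachable (Sum.inr (e, i)) (Sum.inl (diamondSrc k e)) :=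
      fun e i => (diamond_adj_src_mid k e i).symm.reachable
    rcases u with a | ⟨e, i⟩ <;> rcases v with b | ⟨e', i'⟩
    · exact hinl a b
    · exact (hinl a _).trans (hmid e' i').symm
    · exact (hmid e i).trans (hinl _ b)
    · exact ((hmid e i).trans (hinl _ _)).trans (hmid e' i').symm

theorem diamond_connected (k : ℕ) : (diamondGraph k).Connected := by
  have : Nonempty (DiamondVertex k) := by
    cases k with
    | zero => exact ⟨false⟩
    | succ k => exact ⟨Sum.inr (Nat.rec (motive := DiamondEdge) () (fun _ e => (e, 0, false)) k, 0)⟩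
  exact ⟨diamond_reachable k⟩

/-- A canonical edge of `D k`. -/
def diamondEdge0 : (k : ℕ) → DiamondEdge k
  | 0 => ()
  | k + 1 => (diamondEdge0 k, 0, false)

/-- A function on the vertices of a graph that changes by at most one along each edge changes by
at most the length along each walk. -/
theorem walk_potential {V : Type*} {G : SimpleGraph V} (h : V → ℤ)
    (hh : ∀ p q, G.Adj p q → |h p - h q| ≤ 1) {a b : V} (w : G.Walk a b) :
    |h a - h b| ≤ (w.length : ℤ) := by
  induction w with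
  | nil => simp
  | @cons u v w' hadj w ih =>
    have h1 := hh _ _ hadj
    rw [abs_le] at h1 ih ⊢
    rw [SimpleGraph.Walk.length_cons]
    push_cast
    constructor <;> linarith [h1.1, h1.2, ih.1, ih.2]

theorem diamondDist_src_mid (k : ℕ) (e : DiamondEdge k) (i : ℕ) :
    diamondDist (k + 1) (Sum.inl (diamondSrc k e)) (Sum.inr (e, i)) = 1 :=
  SimpleGraph.dist_eq_one_iff_adj.mpr (diamond_adj_src_mid k e i)

theorem diamondDist_mid_tgt (k : ℕ) (e : DiamondEdge k) (i : ℕ) :
    diamondDist (k + 1) (Sum.inr (e, i)) (Sum.inl (diamondTgt k e)) = 1 :=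
  SimpleGraph.dist_eq_one_iff_adj.mpr (diamond_adj_mid_tgt k e i)

theorem diamondDist_mid_mid (k : ℕ) (e : DiamondEdge k) {i j : ℕ} (hij : i ≠ j) :
    2 ≤ diamondDist (k + 1) (Sum.inr (e, i)) (Sum.inr (e, j)) := by
  have hne : (Sum.inr (e, i) : DiamondVertex (k + 1)) ≠ Sum.inr (e, j) := by
    simp [hij]
  have hnadj : ¬ (diamondGraph (k + 1)).Adj (Sum.inr (e, i)) (Sum.inr (e, j)) := by
    intro h
    obtain ⟨e', i', h | h | h | h⟩ := diamond_adj_succ_cases k h
    · exact absurd h.1 (by simp)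
    · exact absurd h.2 (by simp)
    · exact absurd h.1 (by simp)
    · exact absurd h.2 (by simp)
  exact (diamond_reachable (k + 1) _ _).one_lt_dist_of_ne_of_not_adj hne hnadj

theorem diamondDist_edge_le (k : ℕ) (e : DiamondEdge k) :
    diamondDist k (diamondSrc k e) (diamondTgt k e) ≤ 1 := by
  by_cases hne : diamondSrc k e = diamondTgt k e
  · rw [hne]
    simp [diamondDist]
  · have : (diamondGraph k).Adj (diamondSrc k e) (diamondTgt k e) :=
      (diamond_adj_iff k _ _).mpr ⟨hne, Or.inl ⟨e, rfl, rfl⟩⟩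
    exact (SimpleGraph.dist_eq_one_iff_adj.mpr this).le

/-- Distances between old vertices at least double when passing from `D k` to `D (k+1)`. -/
theorem diamondDist_inl_inl (k : ℕ) (u v : DiamondVertex k) :
    2 * diamondDist k u v ≤ diamondDist (k + 1) (Sum.inl u) (Sum.inl v) := by
  let h : DiamondVertex (k + 1) → ℤ := fun p =>
    match p with
    | Sum.inl w => 2 * (diamondDist k u w : ℤ)
    | Sum.inr (e, _) =>
      (diamondDist k u (diamondSrc k e) : ℤ) + (diamondDist k u (diamondTgt k e) : ℤ)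
  have hedge : ∀ e : DiamondEdge k,
      |(diamondDist k u (diamondSrc k e) : ℤ) - (diamondDist k u (diamondTgt k e) : ℤ)| ≤ 1 := by
    intro e
    have hconn := diamond_connected k
    have h1 := hconn.dist_triangle (u := u) (v := diamondSrc k e) (w := diamondTgt k e)
    have h2 := hconn.dist_triangle (u := u) (v := diamondTgt k e) (w := diamondSrc k e)
    have h3 := diamondDist_edge_le k e
    have h4 := SimpleGraph.dist_comm (G := diamondGraph k) (u := diamondSrc k e)
      (v := diamondTgt k e)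
    unfold diamondDist at h3 ⊢
    rw [abs_le]
    constructor <;> omega
  have hh : ∀ p q, (diamondGraph (k + 1)).Adj p q → |h p - h q| ≤ 1 := by
    intro p q hpq
    obtain ⟨e, i, ⟨rfl, rfl⟩ | ⟨rfl, rfl⟩ | ⟨rfl, rfl⟩ | ⟨rfl, rfl⟩⟩ := diamond_adj_succ_cases k hpq
    · have := hedge e
      simp only [h]
      rw [abs_le] at this ⊢
      constructor <;> linarith [this.1, this.2]
    · have := hedge e
      simp only [h]
      rw [abs_le] at this ⊢
      constructor <;> linarith [this.1, this.2]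
    · have := hedge e
      simp only [h]
      rw [abs_le] at this ⊢
      constructor <;> linarith [this.1, this.2]
    · have := hedge e
      simp only [h]
      rw [abs_le] at this ⊢
      constructor <;> linarith [this.1, this.2]
  obtain ⟨w, hw⟩ := (diamond_reachable (k + 1) (Sum.inl u) (Sum.inl v)).exists_walk_length_eq_dist
  have hpot := walk_potential h hh w
  have h0 : h (Sum.inl u) = 0 := by
    simp [h, diamondDist]
  have hv : h (Sum.inl v) = 2 * (diamondDist k u v : ℤ) := rfl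
  rw [h0, hv, abs_le] at hpot
  unfold diamondDist at hpot ⊢
  omega

/-! ### The midpoint lemma -/

open Filter Topology in
/-- **Midpoint lemma.** In a normed space whose maximum-based midpoint modulus is at least
`√(1 + t²/4) - 1`, if countably many points `z i` are `σ`-separated and each is within `L` of
both `a` and `b`, then `‖a - b‖² ≤ 4 L² - σ²/4`. -/
theorem midpoint_core {X : Type*} [NormedAddCommGroup X] [NormedSpace ℝ X]
    (hmod : ∀ t : ℝ, 0 < t → ∀ x : X, ‖x‖ = 1 → ∀ η : ℝ, 0 < η →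
      ∃ S : Submodule ℝ X, IsClosed (S : Set X) ∧ FiniteDimensional ℝ (X ⧸ S) ∧
        ∀ y ∈ S, ‖y‖ = 1 →
          Real.sqrt (1 + t ^ 2 / 4) - 1 - η ≤ max ‖x + t • y‖ ‖x - t • y‖ - 1)
    (a b : X) (z : ℕ → X) (L σ : ℝ) (hσ : 0 ≤ σ) (ha : ∀ i, ‖a - z i‖ ≤ L)
    (hb : ∀ i, ‖z i - b‖ ≤ L) (hz : ∀ i j, i ≠ j → σ ≤ ‖z i - z j‖) :
    ‖a - b‖ ^ 2 ≤ 4 * L ^ 2 - σ ^ 2 / 4 := by
  have hL : 0 ≤ L := (norm_nonneg _).trans (ha 0)
  have hσL : σ ≤ 2 * L := by
    have h1 := hz 0 1 (by norm_num)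
    have h2 : ‖z 0 - z 1‖ ≤ ‖z 0 - b‖ + ‖z 1 - b‖ := by
      have : z 0 - z 1 = (z 0 - b) - (z 1 - b) := by abel
      rw [this]
      exact norm_sub_le _ _
    linarith [hb 0, hb 1]
  have hab : ‖a - b‖ ≤ 2 * L := by
    have : a - b = (a - z 0) + (z 0 - b) := by abel
    rw [this]
    linarith [norm_add_le (a - z 0) (z 0 - b), ha 0, hb 0]
  set ρ : ℝ := ‖a - b‖ / 2 with hρ
  have hρ0 : 0 ≤ ρ := by positivity
  have hρL : ρ ≤ L := by rw [hρ]; linarith
  suffices hsuff : ρ ^ 2 + σ ^ 2 / 16 ≤ L ^ 2 by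
    have : ‖a - b‖ = 2 * ρ := by rw [hρ]; ring
    rw [this]
    nlinarith
  rcases eq_or_lt_of_le hσ with hσ0 | hσpos
  · rw [← hσ0]
    nlinarith
  rcases eq_or_lt_of_le hρ0 with hρ00 | hρpos
  · rw [← hρ00]
    nlinarith
  have key : ∀ ε : ℝ, 0 < ε → ε < σ / 2 →
      Real.sqrt (ρ ^ 2 + (σ / 2 - ε) ^ 2 / 4) ≤ L + ε + ε * ρ := by
    intro ε hε hεσ
    set x : X := (1 / 2 : ℝ) • (a - b) with hx
    have hhalf : ‖(1 / 2 : ℝ)‖ = 1 / 2 := by norm_num
    have hxn : ‖x‖ = ρ := by
      rw [hx, norm_smul, hhalf, hρ]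
      ring
    set t₀ : ℝ := (σ / 2 - ε) / ρ with ht₀
    have ht₀pos : 0 < t₀ := div_pos (by linarith) hρpos
    set xh : X := ρ⁻¹ • x with hxh
    have hxh1 : ‖xh‖ = 1 := by
      rw [hxh, norm_smul, hxn, norm_inv, Real.norm_of_nonneg hρ0]
      exact inv_mul_cancel₀ hρpos.ne'
    obtain ⟨S, hScl, hSfd, hS⟩ := hmod t₀ ht₀pos xh hxh1 ε hε
    have : IsClosed (S : Set X) := hScl
    have : FiniteDimensional ℝ (X ⧸ S) := hSfd
    let q : ℕ → X ⧸ S := fun i => Submodule.Quotient.mk (z i)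
    have hqb : ∀ i, q i ∈ Metric.closedBall (Submodule.Quotient.mk a : X ⧸ S) L := by
      intro i
      rw [mem_closedBall_iff_norm]
      have : q i - Submodule.Quotient.mk a = (Submodule.Quotient.mk (z i - a) : X ⧸ S) :=
        (Submodule.Quotient.mk_sub S).symm
      rw [this]
      refine (Submodule.Quotient.norm_mk_le S _).trans ?_
      rw [norm_sub_rev]
      exact ha i
    obtain ⟨c, -, φ, hφ, hlim⟩ := tendsto_subseq_of_bounded Metric.isBounded_closedBall hqb
    have hev : ∀ᶠ n in atTop, dist ((q ∘ φ) n) c < ε / 2 :=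
      (Metric.tendsto_nhds.mp hlim) (ε / 2) (by positivity)
    obtain ⟨N, hN⟩ := eventually_atTop.mp hev
    have hN1 := hN N le_rfl
    have hN2 := hN (N + 1) (Nat.le_succ N)
    set i := φ N with hi
    set j := φ (N + 1) with hj
    have hij : i ≠ j := (hφ (Nat.lt_succ_self N)).ne
    have hclose : ‖(Submodule.Quotient.mk (z i - z j) : X ⧸ S)‖ < ε := by
      have : (Submodule.Quotient.mk (z i - z j) : X ⧸ S) = q i - q j :=
        Submodule.Quotient.mk_sub S
      rw [this, ← dist_eq_norm]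
      have h3 : dist (q i) (q j) ≤ dist (q i) c + dist (q j) c := dist_triangle_right _ _ _
      simp only [Function.comp_apply] at hN1 hN2
      linarith
    obtain ⟨m, hm, hmn⟩ := Submodule.Quotient.norm_mk_lt
      (Submodule.Quotient.mk (z i - z j) : X ⧸ S)
      (show 0 < ε - ‖(Submodule.Quotient.mk (z i - z j) : X ⧸ S)‖ by linarith)
    have hmε : ‖m‖ < ε := by linarith
    have hmem : (z i - z j) - m ∈ S := by
      rw [← Submodule.Quotient.mk_eq_zero S, Submodule.Quotient.mk_sub, hm, sub_self]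
    set uF : X := (1 / 2 : ℝ) • ((z i - z j) - m) with huF
    have huFS : uF ∈ S := S.smul_mem _ hmem
    have h1 : ‖x + uF‖ ≤ L + ε / 2 := by
      have e : x + uF = (1 / 2 : ℝ) • ((z i - b) + (a - z j)) - (1 / 2 : ℝ) • m := by
        rw [hx, huF]
        module
      rw [e]
      have n1 := norm_sub_le ((1 / 2 : ℝ) • ((z i - b) + (a - z j))) ((1 / 2 : ℝ) • m)
      rw [norm_smul, norm_smul, hhalf] at n1
      have n2 := norm_add_le (z i - b) (a - z j)
      linarith [hb i, ha j]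
    have h2 : ‖x - uF‖ ≤ L + ε / 2 := by
      have e : x - uF = (1 / 2 : ℝ) • ((a - z i) + (z j - b)) + (1 / 2 : ℝ) • m := by
        rw [hx, huF]
        module
      rw [e]
      have n1 := norm_add_le ((1 / 2 : ℝ) • ((a - z i) + (z j - b))) ((1 / 2 : ℝ) • m)
      rw [norm_smul, norm_smul, hhalf] at n1
      have n2 := norm_add_le (a - z i) (z j - b)
      linarith [ha i, hb j]
    have h3 : σ / 2 - ε / 2 ≤ ‖uF‖ := by
      rw [huF, norm_smul, hhalf]
      have n1 := norm_sub_norm_le (z i - z j) m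
      linarith [hz i j hij]
    have huFpos : 0 < ‖uF‖ := by linarith
    set y : X := ‖uF‖⁻¹ • uF with hy
    have hyS : y ∈ S := S.smul_mem _ huFS
    have hy1 : ‖y‖ = 1 := by
      rw [hy, norm_smul, norm_inv, norm_norm]
      exact inv_mul_cancel₀ huFpos.ne'
    have hmain := hS y hyS hy1
    set t₁ : ℝ := ‖uF‖ / ρ with ht₁
    have ht01 : t₀ ≤ t₁ := by
      rw [ht₀, ht₁]
      exact div_le_div_of_nonneg_right (by linarith) hρpos.le
    have ht₁pos : 0 < t₁ := lt_of_lt_of_le ht₀pos ht01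
    have hty : t₁ • y = ρ⁻¹ • uF := by
      rw [hy, ht₁, smul_smul]
      congr 1
      field_simp
    have e1 : xh + t₁ • y = ρ⁻¹ • (x + uF) := by
      rw [hty, hxh, smul_add]
    have e2 : xh - t₁ • y = ρ⁻¹ • (x - uF) := by
      rw [hty, hxh, smul_sub]
    have n1 : ‖xh + t₁ • y‖ ≤ (L + ε / 2) / ρ := by
      rw [e1, norm_smul, norm_inv, Real.norm_of_nonneg hρ0, inv_mul_eq_div]
      exact div_le_div_of_nonneg_right h1 hρpos.le
    have n2 : ‖xh - t₁ • y‖ ≤ (L + ε / 2) / ρ := by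
      rw [e2, norm_smul, norm_inv, Real.norm_of_nonneg hρ0, inv_mul_eq_div]
      exact div_le_div_of_nonneg_right h2 hρpos.le
    set lam : ℝ := (1 + t₀ / t₁) / 2 with hlam
    have hlam0 : 0 ≤ lam := by positivity
    have hlam1 : lam ≤ 1 := by
      rw [hlam]
      have : t₀ / t₁ ≤ 1 := (div_le_one ht₁pos).mpr ht01
      linarith
    have ht : t₀ = lam * t₁ - (1 - lam) * t₁ := by
      rw [hlam]
      field_simp
      ring
    have c1 : ‖xh + t₀ • y‖ ≤ (L + ε / 2) / ρ := by
      have e : xh + t₀ • y = lam • (xh + t₁ • y) + (1 - lam) • (xh - t₁ • y) := by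
        conv_lhs => rw [ht]
        module
      rw [e]
      have m1 := norm_add_le (lam • (xh + t₁ • y)) ((1 - lam) • (xh - t₁ • y))
      rw [norm_smul, norm_smul, Real.norm_of_nonneg hlam0,
        Real.norm_of_nonneg (by linarith : (0 : ℝ) ≤ 1 - lam)] at m1
      have m2 := mul_le_mul_of_nonneg_left n1 hlam0
      have m3 := mul_le_mul_of_nonneg_left n2 (by linarith : (0 : ℝ) ≤ 1 - lam)
      linarith
    have c2 : ‖xh - t₀ • y‖ ≤ (L + ε / 2) / ρ := by
      have e : xh - t₀ • y = lam • (xh - t₁ • y) + (1 - lam) • (xh + t₁ • y) := by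
        conv_lhs => rw [ht]
        module
      rw [e]
      have m1 := norm_add_le (lam • (xh - t₁ • y)) ((1 - lam) • (xh + t₁ • y))
      rw [norm_smul, norm_smul, Real.norm_of_nonneg hlam0,
        Real.norm_of_nonneg (by linarith : (0 : ℝ) ≤ 1 - lam)] at m1
      have m2 := mul_le_mul_of_nonneg_left n2 hlam0
      have m3 := mul_le_mul_of_nonneg_left n1 (by linarith : (0 : ℝ) ≤ 1 - lam)
      linarith
    have hmax : max ‖xh + t₀ • y‖ ‖xh - t₀ • y‖ ≤ (L + ε / 2) / ρ := max_le c1 c2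
    have hfin : Real.sqrt (1 + t₀ ^ 2 / 4) ≤ (L + ε / 2) / ρ + ε := by linarith
    have hsq : Real.sqrt (ρ ^ 2 + (σ / 2 - ε) ^ 2 / 4) = ρ * Real.sqrt (1 + t₀ ^ 2 / 4) := by
      have : ρ ^ 2 + (σ / 2 - ε) ^ 2 / 4 = ρ ^ 2 * (1 + t₀ ^ 2 / 4) := by
        rw [ht₀]
        field_simp
      rw [this, Real.sqrt_mul (sq_nonneg ρ), Real.sqrt_sq hρ0]
    rw [hsq]
    have hmul := mul_le_mul_of_nonneg_left hfin hρ0
    have : ρ * ((L + ε / 2) / ρ + ε) = L + ε / 2 + ε * ρ := by
      field_simp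
    linarith
  have hlim1 : Tendsto (fun ε : ℝ => Real.sqrt (ρ ^ 2 + (σ / 2 - ε) ^ 2 / 4)) (𝓝[>] 0)
      (𝓝 (Real.sqrt (ρ ^ 2 + (σ / 2 - 0) ^ 2 / 4))) :=
    ((by fun_prop : Continuous (fun ε : ℝ => Real.sqrt (ρ ^ 2 + (σ / 2 - ε) ^ 2 / 4))).tendsto
      0).mono_left nhdsWithin_le_nhds
  have hlim2 : Tendsto (fun ε : ℝ => L + ε + ε * ρ) (𝓝[>] 0) (𝓝 (L + 0 + 0 * ρ)) :=
    ((by fun_prop : Continuous (fun ε : ℝ => L + ε + ε * ρ)).tendsto 0).mono_left
      nhdsWithin_le_nhds
  have hle := le_of_tendsto_of_tendsto hlim1 hlim2 (by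
    filter_upwards [Ioo_mem_nhdsGT (show (0 : ℝ) < σ / 2 by positivity)] with ε hε
      using key ε hε.1 hε.2)
  have hle' : Real.sqrt (ρ ^ 2 + σ ^ 2 / 16) ≤ L := by
    have e1 : ρ ^ 2 + (σ / 2 - 0) ^ 2 / 4 = ρ ^ 2 + σ ^ 2 / 16 := by ring
    rw [e1] at hle
    simpa using hle
  calc ρ ^ 2 + σ ^ 2 / 16 = (Real.sqrt (ρ ^ 2 + σ ^ 2 / 16)) ^ 2 :=
        (Real.sq_sqrt (by positivity)).symm
    _ ≤ L ^ 2 := pow_le_pow_left₀ (Real.sqrt_nonneg _) hle' 2

/-! ### The induction over the depth -/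

theorem diamond_core {X : Type*} [NormedAddCommGroup X] [NormedSpace ℝ X]
    (hmid : ∀ (a b : X) (z : ℕ → X) (L σ : ℝ), 0 ≤ σ → (∀ i, ‖a - z i‖ ≤ L) →
      (∀ i, ‖z i - b‖ ≤ L) → (∀ i j, i ≠ j → σ ≤ ‖z i - z j‖) →
      ‖a - b‖ ^ 2 ≤ 4 * L ^ 2 - σ ^ 2 / 4) :
    ∀ (k : ℕ) (f : DiamondVertex k → X) (s L : ℝ), 0 < s →
      (∀ u v, s * (diamondDist k u v : ℝ) ≤ ‖f u - f v‖ ∧
        ‖f u - f v‖ ≤ L * (diamondDist k u v : ℝ)) →
      s ^ 2 * (1 + (k : ℝ) / 4) ≤ L ^ 2 := by
  intro k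
  induction k with
  | zero =>
    intro f s L hs hf
    have hadj : (diamondGraph 0).Adj false true :=
      (diamond_adj_iff 0 _ _).mpr ⟨Bool.false_ne_true, Or.inl ⟨(), rfl, rfl⟩⟩
    have hd : diamondDist 0 false true = 1 := SimpleGraph.dist_eq_one_iff_adj.mpr hadj
    have h := hf false true
    rw [hd] at h
    simp only [Nat.cast_one, mul_one] at h
    have hsL : s ≤ L := h.1.trans h.2
    simp only [Nat.cast_zero, zero_div, add_zero, mul_one]
    exact pow_le_pow_left₀ hs.le hsL 2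
  | succ k ih =>
    intro f s L hs hf
    have hsL : s ≤ L := by
      have h := hf (Sum.inl (diamondSrc k (diamondEdge0 k))) (Sum.inr (diamondEdge0 k, 0))
      rw [diamondDist_src_mid] at h
      simp only [Nat.cast_one, mul_one] at h
      exact h.1.trans h.2
    have hL : 0 < L := lt_of_lt_of_le hs hsL
    have hedge : ∀ e : DiamondEdge k,
        ‖f (Sum.inl (diamondSrc k e)) - f (Sum.inl (diamondTgt k e))‖ ^ 2 ≤
          4 * L ^ 2 - s ^ 2 := by
      intro e
      have := hmid (f (Sum.inl (diamondSrc k e))) (f (Sum.inl (diamondTgt k e)))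
        (fun i => f (Sum.inr (e, i))) L (2 * s) (by linarith)
        (fun i => by
          have h := (hf (Sum.inl (diamondSrc k e)) (Sum.inr (e, i))).2
          rw [diamondDist_src_mid] at h
          simpa using h)
        (fun i => by
          have h := (hf (Sum.inr (e, i)) (Sum.inl (diamondTgt k e))).2
          rw [diamondDist_mid_tgt] at h
          simpa using h)
        (fun i j hij => by
          have h := (hf (Sum.inr (e, i)) (Sum.inr (e, j))).1
          have hd : (2 : ℝ) ≤ (diamondDist (k + 1) (Sum.inr (e, i)) (Sum.inr (e, j)) : ℝ) := by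
            exact_mod_cast diamondDist_mid_mid k e hij
          nlinarith)
      nlinarith
    set L' : ℝ := Real.sqrt (4 * L ^ 2 - s ^ 2) with hL'
    have hpos : 0 ≤ 4 * L ^ 2 - s ^ 2 := by nlinarith
    have hadj : ∀ u v : DiamondVertex k, (diamondGraph k).Adj u v →
        ‖f (Sum.inl u) - f (Sum.inl v)‖ ≤ L' := by
      intro u v huv
      obtain ⟨-, ⟨e, rfl, rfl⟩ | ⟨e, rfl, rfl⟩⟩ := (diamond_adj_iff k _ _).mp huv
      · exact Real.le_sqrt_of_sq_le (hedge e)
      · rw [norm_sub_rev]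
        exact Real.le_sqrt_of_sq_le (hedge e)
    have hwalk : ∀ (u v : DiamondVertex k) (w : (diamondGraph k).Walk u v),
        ‖f (Sum.inl u) - f (Sum.inl v)‖ ≤ L' * (w.length : ℝ) := by
      intro u v w
      induction w with
      | nil => simp
      | @cons a b c hab w ih' =>
        have h1 := hadj _ _ hab
        have : f (Sum.inl a) - f (Sum.inl c) =
            (f (Sum.inl a) - f (Sum.inl b)) + (f (Sum.inl b) - f (Sum.inl c)) := by abel
        rw [this, SimpleGraph.Walk.length_cons]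
        push_cast
        linarith [norm_add_le (f (Sum.inl a) - f (Sum.inl b)) (f (Sum.inl b) - f (Sum.inl c))]
    have hg := ih (fun u => f (Sum.inl u)) (2 * s) L' (by linarith) (fun u v => by
      constructor
      · have h := (hf (Sum.inl u) (Sum.inl v)).1
        have hd : (2 : ℝ) * (diamondDist k u v : ℝ) ≤
            (diamondDist (k + 1) (Sum.inl u) (Sum.inl v) : ℝ) := by
          exact_mod_cast diamondDist_inl_inl k u v
        nlinarith
      · obtain ⟨w, hw⟩ := (diamond_reachable k u v).exists_walk_length_eq_dist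
        have := hwalk u v w
        rw [hw] at this
        exact this)
    have hL'sq : L' ^ 2 = 4 * L ^ 2 - s ^ 2 := Real.sq_sqrt hpos
    rw [hL'sq] at hg
    push_cast
    nlinarith

/-- **Diamond distortion bound** (last conjunct of S0166, from the maximum-based midpoint
modulus alone). -/
theorem diamond_distortion (E : RealBanach)
    (hE : ∀ t : ℝ, 0 < t →
      E.MaxMidpointModulusGE E.norm t (Real.sqrt (1 + t ^ 2 / 4) - 1))
    (k : ℕ) (f : DiamondVertex k → E.X) (D : ℝ) (hf : E.HasDistortionLE k f D) :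
    1 + (k : ℝ) / 4 ≤ D ^ 2 := by
  let _ := E.normed
  let _ := E.space
  have hmod : ∀ t : ℝ, 0 < t → ∀ x : E.X, ‖x‖ = 1 → ∀ η : ℝ, 0 < η →
      ∃ S : Submodule ℝ E.X, IsClosed (S : Set E.X) ∧ FiniteDimensional ℝ (E.X ⧸ S) ∧
        ∀ y ∈ S, ‖y‖ = 1 →
          Real.sqrt (1 + t ^ 2 / 4) - 1 - η ≤ max ‖x + t • y‖ ‖x - t • y‖ - 1 := by
    intro t ht x hx η hη
    obtain ⟨F, ⟨S, rfl, hcl, hfd⟩, hF⟩ := hE t ht x hx η hη
    exact ⟨S, hcl, hfd, fun y hy hy1 => hF y hy hy1⟩
  obtain ⟨s, hs, hfs⟩ := hf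
  have h := diamond_core (fun a b z L σ => midpoint_core hmod a b z L σ) k f s (D * s) hs
    (fun u v => ⟨(hfs u v).1, (hfs u v).2⟩)
  have hs2 : 0 < s ^ 2 := by positivity
  have h' : s ^ 2 * (1 + (k : ℝ) / 4) ≤ s ^ 2 * D ^ 2 := by
    rw [mul_pow] at h
    linarith
  exact le_of_mul_le_mul_left h' hs2

end Crest.Agent.Helper6
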